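import Vale.Agent.P157C.Fin

/-! # P157: the mean pressure of the Ising perceptron is Lipschitz in `L¹(Gauss)`, uniformly in `N` -/

namespace Vale.Agent.Results.P157.LOneContinuity

open MeasureTheory ProbabilityTheory Filter Topology P157C

/-- For the Ising perceptron with Gaussian patterns and density `α`:
(1) the mean pressure is Lipschitz in `L¹` of the standard Gaussian law on Borel potentials bounded
by `K`, uniformly in `N`;
(2) the set of potentials whose mean pressure converges is closed under `L¹` limits with a common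
bound, and the limits converge;
(3) if the mean pressure converges for every continuous compactly supported potential, then it
converges for every bounded Borel potential. -/
theorem result (α : ℝ) (hα : 0 < α) :
    (∀ (K : ℝ) (f g : ℝ → ℝ), Measurable f → Measurable g → (∀ t, |f t| ≤ K) →
      (∀ t, |g t| ≤ K) → ∀ N : ℕ, 0 < N →
      |meanPressure α f N - meanPressure α g N|
        ≤ α * Real.exp (2 * K) * ∫ t, |f t - g t| ∂(gaussianReal 0 1)) ∧
    (∀ (K : ℝ) (fk : ℕ → ℝ → ℝ) (f : ℝ → ℝ), (∀ k, Measurable (fk k)) → Measurable f →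
      (∀ k t, |fk k t| ≤ K) → (∀ t, |f t| ≤ K) →
      Tendsto (fun k => ∫ t, |fk k t - f t| ∂(gaussianReal 0 1)) atTop (𝓝 0) →
      ∀ l : ℕ → ℝ, (∀ k, Tendsto (meanPressure α (fk k)) atTop (𝓝 (l k))) →
      ∃ L : ℝ, Tendsto l atTop (𝓝 L) ∧ Tendsto (meanPressure α f) atTop (𝓝 L)) ∧
    ((∀ f : ℝ → ℝ, Continuous f → HasCompactSupport f →
        ∃ L : ℝ, Tendsto (meanPressure α f) atTop (𝓝 L)) →
      ∀ (f : ℝ → ℝ), Measurable f → (∃ K : ℝ, ∀ t, |f t| ≤ K) →
        ∃ L : ℝ, Tendsto (meanPressure α f) atTop (𝓝 L)) :=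
  ⟨fun K f g hf hg h1 h2 N hN => lip_main α hα.le f g hf hg K h1 h2 N hN,
    fun K fk f hfk hf h1 h2 h3 l hl =>
      closure_lim (fun _ hN σ => law_spin hN σ) α hα.le K fk f hfk hf h1 h2 h3 l hl,
    fun H f hf ⟨K, hK⟩ => reduce α hα.le H f hf K hK⟩

end Vale.Agent.Results.P157.LOneContinuity
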